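import Mathlib

/-!
Natural unit interval graphs and their chromatic quasisymmetric functions in finitely many
variables.
-/

namespace Vale.Agent.Lib.P066

open Polynomial

/-- A weakly increasing sequence `h` with `i ≤ h i`, on the vertex set `Fin n`. -/
structure Hess (n : ℕ) where
  h : Fin n → Fin n
  mono : Monotone h
  self_le : ∀ i, i ≤ h i

namespace Hess

variable {n : ℕ} (G : Hess n)

/-- The edges of the natural unit interval graph `G(h)`, written with the smaller end first. -/
def Edge (a b : Fin n) : Prop := a < b ∧ b ≤ G.h a

/-- Proper colourings with `M` colours. -/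
def IsProper {M : ℕ} (f : Fin n → Fin M) : Prop := ∀ a b, G.Edge a b → f a ≠ f b

open scoped Classical in
/-- The number of edges `a < b` with `f a < f b`. -/
noncomputable def asc {M : ℕ} (f : Fin n → Fin M) : ℕ :=
  (Finset.univ.filter fun p : Fin n × Fin n => G.Edge p.1 p.2 ∧ f p.1 < f p.2).card

open scoped Classical in
/-- The chromatic quasisymmetric function of `G(h)` in the variables `x_0, …, x_{M-1}`
(all further variables set to zero), with coefficients in `ℤ[q]`. -/
noncomputable def chi (M : ℕ) : MvPolynomial (Fin M) ℤ[X] :=
  ∑ f ∈ Finset.univ.filter fun f : Fin n → Fin M => G.IsProper f,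
    MvPolynomial.C ((X : ℤ[X]) ^ G.asc f) * ∏ a, MvPolynomial.X (f a)

end Hess

end Vale.Agent.Lib.P066
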