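import Vale.Agent.Lib.P066.Graph
import Vale.Agent.Lib.P066.Defs

/-!
The chromatic quasisymmetric function as a weighted sum over lists of colours.
-/

namespace Vale.Agent.Lib.P066

open Polynomial

noncomputable section

variable {n : ℕ} (G : Hess n)

namespace Hess

/-- The sequence `h` extended to all natural numbers. -/
def hh (a : ℕ) : ℕ := if h : a < n then (G.h ⟨a, h⟩).val else a

theorem le_hh (a : ℕ) : a ≤ G.hh a := by
  unfold hh
  split_ifs with h
  · exact G.self_le ⟨a, h⟩
  · exact le_rfl

theorem hh_mono {a b : ℕ} (hab : a ≤ b) : G.hh a ≤ G.hh b := by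
  unfold hh
  by_cases hb : b < n
  · have ha : a < n := by omega
    rw [dif_pos ha, dif_pos hb]
    exact G.mono (show (⟨a, ha⟩ : Fin n) ≤ ⟨b, hb⟩ from hab)
  · rw [dif_neg hb]
    by_cases ha : a < n
    · rw [dif_pos ha]
      have := (G.h ⟨a, ha⟩).isLt
      omega
    · rw [dif_neg ha]
      exact hab

/-- The first vertex whose `h` reaches `t`. -/
def ss (t : ℕ) : ℕ := Nat.find (⟨t, G.le_hh t⟩ : ∃ a, t ≤ G.hh a)

theorem ss_le_iff (t a : ℕ) : G.ss t ≤ a ↔ t ≤ G.hh a := by
  constructor
  · intro h
    exact (Nat.find_spec (⟨t, G.le_hh t⟩ : ∃ a, t ≤ G.hh a)).trans (G.hh_mono h)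
  · intro h
    exact Nat.find_min' _ h

theorem ss_le (t : ℕ) : G.ss t ≤ t := (G.ss_le_iff t t).mpr (G.le_hh t)

theorem ss_mono (t : ℕ) : G.ss t ≤ G.ss (t + 1) := by
  rw [G.ss_le_iff]
  have := (G.ss_le_iff (t + 1) _).mp le_rfl
  omega

/-- The number of earlier neighbours of a vertex. -/
def back (t : ℕ) : ℕ := t - G.ss t

theorem back_zero : G.back 0 = 0 := by simp [back]

theorem back_succ (t : ℕ) : G.back (t + 1) ≤ G.back t + 1 := by
  have h1 := G.ss_mono t
  have h2 := G.ss_le t
  simp only [back]
  omega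

end Hess

/-- The colours of the vertices below `t`, newest first. -/
def LL (g : ℕ → ℕ) : ℕ → List ℕ
  | 0 => []
  | t + 1 => g t :: LL g t

theorem LL_length (g : ℕ → ℕ) (t : ℕ) : (LL g t).length = t := by
  induction t with
  | zero => rfl
  | succ t ih => simp [LL, ih]

theorem mem_take_LL (g : ℕ → ℕ) (c k t : ℕ) (hk : k ≤ t) :
    c ∈ (LL g t).take k ↔ ∃ a, t - k ≤ a ∧ a < t ∧ g a = c := by
  induction k generalizing t with
  | zero =>
    simp only [List.take_zero, List.not_mem_nil, false_iff]
    rintro ⟨a, h1, h2, _⟩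
    omega
  | succ k ih =>
    cases t with
    | zero => omega
    | succ t =>
      simp only [LL, List.take_succ_cons, List.mem_cons]
      rw [ih t (by omega)]
      constructor
      · rintro (rfl | ⟨a, h1, h2, h3⟩)
        · exact ⟨t, by omega, by omega, rfl⟩
        · exact ⟨a, by omega, by omega, h3⟩
      · rintro ⟨a, h1, h2, h3⟩
        by_cases h : a = t
        · left
          rw [← h3, h]
        · right
          exact ⟨a, by omega, by omega, h3⟩

theorem cntLt_take_LL (g : ℕ → ℕ) (c k t : ℕ) (hk : k ≤ t) :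
    cntLt c ((LL g t).take k) = ((Finset.Ico (t - k) t).filter fun a => g a < c).card := by
  induction k generalizing t with
  | zero => simp [cntLt]
  | succ k ih =>
    cases t with
    | zero => omega
    | succ t =>
      simp only [LL, List.take_succ_cons, cntLt]
      rw [ih t (by omega)]
      have h1 : t + 1 - (k + 1) = t - k := by omega
      have h2 : t - k ≤ t := by omega
      rw [h1, Finset.card_filter, Finset.card_filter, Finset.sum_Ico_succ_top h2, add_comm]
      congr 1
      by_cases h : g t < c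
      · simp [h]
      · simp [h]

variable (N : ℕ)

/-- The weight of the colouring `g` of the vertices below `t`. -/
theorem wt_LL (g : ℕ → ℕ) (t : ℕ) :
    wt N G.back (LL g t) =
      if ∀ b < t, ∀ a, G.ss b ≤ a → a < b → g a ≠ g b then
        qq N ^ (∑ b ∈ Finset.range t, ((Finset.Ico (G.ss b) b).filter fun a => g a < g b).card) *
          ∏ b ∈ Finset.range t, xv N (g b)
      else 0 := by
  induction t with
  | zero => simp [LL, wt]
  | succ t ih =>
    have hle : G.back t ≤ t := by simp [Hess.back]
    have hss : t - G.back t = G.ss t := by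
      have := G.ss_le t
      simp only [Hess.back]
      omega
    simp only [LL, wt, LL_length]
    rw [ih, cntLt_take_LL g _ _ _ hle, hss]
    have hmem : memB (g t) ((LL g t).take (G.back t)) = true ↔
        ∃ a, G.ss t ≤ a ∧ a < t ∧ g a = g t := by
      rw [memB_iff, mem_take_LL g _ _ _ hle, hss]
    by_cases h1 : ∃ a, G.ss t ≤ a ∧ a < t ∧ g a = g t
    · have h2 := hmem.mpr h1
      rw [if_pos h2, zero_mul, if_neg]
      intro h3
      obtain ⟨a, ha1, ha2, ha3⟩ := h1
      exact h3 t (by omega) a ha1 ha2 ha3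
    · have h2 : ¬ memB (g t) ((LL g t).take (G.back t)) = true := fun h => h1 (hmem.mp h)
      rw [if_neg h2]
      by_cases h3 : ∀ b < t, ∀ a, G.ss b ≤ a → a < b → g a ≠ g b
      · have h4 : ∀ b < t + 1, ∀ a, G.ss b ≤ a → a < b → g a ≠ g b := by
          intro b hb a ha1 ha2 ha3
          by_cases hbt : b = t
          · subst hbt
            exact h1 ⟨a, ha1, ha2, ha3⟩
          · exact h3 b (by omega) a ha1 ha2 ha3
        rw [if_pos h3, if_pos h4, Finset.sum_range_succ, Finset.prod_range_succ, pow_add]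
        ring
      · have h4 : ¬ ∀ b < t + 1, ∀ a, G.ss b ≤ a → a < b → g a ≠ g b := fun h =>
          h3 fun b hb => h b (by omega)
        rw [if_neg h3, if_neg h4, mul_zero]

/-- The list of colours of a colouring of `Fin t`, newest first. -/
def LF : (t : ℕ) → (Fin t → Fin N) → List ℕ
  | 0, _ => []
  | t + 1, f => (f (Fin.last t)).val :: LF t fun i => f i.castSucc

theorem LF_snoc (t : ℕ) (f : Fin t → Fin N) (c : Fin N) :
    LF N (t + 1) (Fin.snoc (α := fun _ => Fin N) f c) = c.val :: LF N t f := by
  simp [LF]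

theorem lsum_eq (t : ℕ) (F : List ℕ → AA N) :
    lsum N t F = ∑ f : Fin t → Fin N, F (LF N t f) := by
  induction t generalizing F with
  | zero => simp [lsum, LF]
  | succ t ih =>
    rw [lsum, ih]
    rw [← (Fin.snocEquiv (fun _ : Fin (t + 1) => Fin N)).sum_comp, Fintype.sum_prod_type_right]
    refine Finset.sum_congr rfl fun f _ => ?_
    rw [Finset.sum_range]
    refine Finset.sum_congr rfl fun c _ => ?_
    have := LF_snoc N t f c
    rw [← this]
    rfl

theorem LF_eq {t : ℕ} (f : Fin t → Fin N) (g : ℕ → ℕ) (hg : ∀ i : Fin t, g i = (f i).val) :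
    LF N t f = LL g t := by
  induction t with
  | zero => rfl
  | succ t ih =>
    simp only [LF, LL]
    rw [ih (fun i => f i.castSucc) fun i => by simpa using hg i.castSucc]
    congr 1
    simpa using (hg (Fin.last t)).symm

/-- The colouring `f`, as a function on all natural numbers. -/
def extF (f : Fin n → Fin N) (a : ℕ) : ℕ := if h : a < n then (f ⟨a, h⟩).val else 0

theorem extF_val (f : Fin n → Fin N) (i : Fin n) : extF N f i = (f i).val := by
  simp [extF]

/-- The chromatic quasisymmetric function with coefficients in `ℕ[q]`. -/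
def chiN : AA N :=
  ∑ f : Fin n → Fin N,
    open scoped Classical in
    if G.IsProper f then
      MvPolynomial.C ((X : ℕ[X]) ^ G.asc f) * ∏ a, MvPolynomial.X (f a)
    else 0

theorem proper_iff (f : Fin n → Fin N) :
    G.IsProper f ↔ ∀ b < n, ∀ a, G.ss b ≤ a → a < b → extF N f a ≠ extF N f b := by
  constructor
  · intro hf b hb a ha1 ha2
    have ha3 : a < n := by omega
    have h1 := (G.ss_le_iff b a).mp ha1
    simp only [Hess.hh, ha3, dif_pos] at h1
    have := hf ⟨a, ha3⟩ ⟨b, hb⟩ ⟨ha2, h1⟩
    simp only [extF, ha3, hb, dif_pos]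
    intro h2
    exact this (Fin.ext h2)
  · rintro hf ⟨a, ha⟩ ⟨b, hb⟩ ⟨h1, h2⟩
    have h3 : G.ss b ≤ a := by
      rw [G.ss_le_iff]
      simp only [Hess.hh, ha, dif_pos]
      exact h2
    have := hf b hb a h3 h1
    simp only [extF, ha, hb, dif_pos] at this
    intro h4
    exact this (congrArg Fin.val h4)

theorem asc_eq (f : Fin n → Fin N) :
    G.asc f = ∑ b ∈ Finset.range n,
      ((Finset.Ico (G.ss b) b).filter fun a => extF N f a < extF N f b).card := by
  classical
  rw [Finset.sum_range, Hess.asc, Finset.card_filter, Fintype.sum_prod_type_right]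
  refine Finset.sum_congr rfl fun b _ => ?_
  rw [← Finset.card_filter]
  symm
  refine Finset.card_bij (fun a ha => (⟨a, ?_⟩ : Fin n)) ?_ ?_ ?_
  · have := (Finset.mem_Ico.mp (Finset.mem_filter.mp ha).1).2
    have := b.isLt
    omega
  · intro a ha
    obtain ⟨h1, h2⟩ := Finset.mem_filter.mp ha
    obtain ⟨h3, h4⟩ := Finset.mem_Ico.mp h1
    have h5 : a < n := by
      have := b.isLt
      omega
    have h6 := (G.ss_le_iff b a).mp h3
    simp only [Hess.hh, h5, dif_pos] at h6
    simp only [Finset.mem_filter, Finset.mem_univ, true_and]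
    refine ⟨⟨h4, h6⟩, ?_⟩
    simp only [extF, h5, b.isLt, dif_pos] at h2
    exact h2
  · intro a _ a' _ h
    exact congrArg Fin.val h
  · rintro a ha
    simp only [Finset.mem_filter, Finset.mem_univ, true_and] at ha
    obtain ⟨⟨h1, h2⟩, h3⟩ := ha
    refine ⟨a.val, ?_, rfl⟩
    simp only [Finset.mem_filter, Finset.mem_Ico]
    refine ⟨⟨?_, h1⟩, ?_⟩
    · rw [G.ss_le_iff]
      simp only [Hess.hh, a.isLt, dif_pos]
      exact h2
    · simp only [extF, a.isLt, b.isLt, dif_pos]
      exact h3

theorem chiN_eq : chiN G N = lsum N n (wt N G.back) := by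
  classical
  rw [lsum_eq, chiN]
  refine Finset.sum_congr rfl fun f _ => ?_
  rw [LF_eq N f (extF N f) (extF_val N f), wt_LL]
  by_cases hf : G.IsProper f
  · rw [if_pos hf, if_pos ((proper_iff G N f).mp hf), ← asc_eq G N f, Finset.prod_range]
    congr 1
    · simp [qq]
    · refine Finset.prod_congr rfl fun a _ => ?_
      rw [extF_val, xv, dif_pos (f a).isLt]
  · rw [if_neg hf, if_neg (fun h => hf ((proper_iff G N f).mpr h))]

end

end Vale.Agent.Lib.P066
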