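import Vale.Agent.Lib.P066.Cone
import Vale.Agent.Lib.P066.Data4

namespace Vale.Agent.Lib.P066.D4

theorem check : checkAll 4 gens cN cE 5 = true := by decide +kernel

theorem stable : Stable 4 gens :=
  stable_of_check check fun k hk => by
    obtain ⟨j, rfl⟩ := Nat.exists_eq_add_of_le hk
    rw [add_comm]
    rfl

theorem lv0_eq : gens 0 = [g0_0] := rfl

theorem eval0 : evalG 4 g0_0 [] = 1 := by
  simp [evalG, g0_0, glook, code, semP, semMon, semX]

end Vale.Agent.Lib.P066.D4
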