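import Vale.Agent.Lib.P066.Core

/-!
The cone spanned by finitely many state vectors, and soundness of the checker.
-/

namespace Vale.Agent.Lib.P066

noncomputable section

variable (N : ℕ)

/-- The algebra map sending the `i`-th variable to the elementary symmetric polynomial of
degree `i + 1`. -/
def esAlg : MvPolynomial (Fin N) (Polynomial ℕ) →ₐ[Polynomial ℕ] AA N :=
  MvPolynomial.aeval fun i : Fin N => MvPolynomial.esymm (Fin N) (Polynomial ℕ) (i.val + 1)

/-- The elements that are polynomials in the elementary symmetric polynomials with coefficients in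
`ℕ[q]`. -/
def Pos (a : AA N) : Prop := a ∈ (esAlg N).range

variable {N}

theorem Pos.zero : Pos N 0 := Subalgebra.zero_mem _
theorem Pos.one : Pos N 1 := Subalgebra.one_mem _
theorem Pos.add {a b : AA N} (ha : Pos N a) (hb : Pos N b) : Pos N (a + b) :=
  Subalgebra.add_mem _ ha hb
theorem Pos.mul {a b : AA N} (ha : Pos N a) (hb : Pos N b) : Pos N (a * b) :=
  Subalgebra.mul_mem _ ha hb
theorem Pos.pow {a : AA N} (ha : Pos N a) (k : ℕ) : Pos N (a ^ k) :=
  Subalgebra.pow_mem _ ha k

theorem Pos.qq : Pos N (qq N) :=
  Subalgebra.algebraMap_mem _ (Polynomial.X : Polynomial ℕ)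

theorem Pos.esymm (i : ℕ) : Pos N (MvPolynomial.esymm (Fin N) (Polynomial ℕ) i) := by
  rcases Nat.eq_zero_or_pos i with rfl | hi
  · have : MvPolynomial.esymm (Fin N) (Polynomial ℕ) 0 = 1 := by
      simp [MvPolynomial.esymm]
    rw [this]; exact Pos.one
  · by_cases h : i ≤ N
    · refine ⟨MvPolynomial.X ⟨i - 1, by omega⟩, ?_⟩
      show esAlg N (MvPolynomial.X _) = _
      rw [esAlg, MvPolynomial.aeval_X]
      congr 1
      simp only
      omega
    · have : MvPolynomial.esymm (Fin N) (Polynomial ℕ) i = 0 := by
        simp only [MvPolynomial.esymm]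
        rw [Finset.powersetCard_eq_empty.mpr (by simpa using h)]
        simp
      rw [this]; exact Pos.zero

variable (N) in
theorem semP_ep (i : ℕ) :
    semP N (ep N i) = MvPolynomial.esymm (Fin N) (Polynomial ℕ) i := by
  have h := semP_ep_aux N N i le_rfl
  have h2 : (Finset.univ.filter fun a : Fin N => a.val < N) = Finset.univ := by
    ext a; simp
  rw [h2] at h
  rw [h, MvPolynomial.esymm]

theorem Pos_termPoly (s : ℕ) (es : List ℕ) : Pos N (semP N (termPoly N s es)) := by
  induction es with
  | nil =>
    have : semP N (termPoly N s []) = qq N ^ s := by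
      simp [termPoly, semP, semMon, semX]
    rw [this]
    exact Pos.qq.pow s
  | cons i es ih =>
    simp only [termPoly, semP_mulP, semP_ep]
    exact (Pos.esymm i).mul ih

/-! ### Colours -/

theorem memB_iff (c : ℕ) (l : List ℕ) : memB c l = true ↔ c ∈ l := by
  induction l with
  | nil => simp [memB]
  | cons d l ih =>
    simp only [memB, Bool.or_eq_true, ih, List.mem_cons]
    have h : c.beq d = true ↔ c = d := by
      constructor
      · exact Nat.eq_of_beq_eq_true
      · rintro rfl; exact Nat.beq_refl c
    rw [h]

theorem mem_freeCols {c : ℕ} {l : List ℕ} : c ∈ freeCols N l ↔ c < N ∧ c ∉ l := by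
  simp only [freeCols, List.mem_filter, List.mem_range, Bool.not_eq_true', and_congr_right_iff]
  intro _
  rw [← memB_iff]
  simp

variable (N) in
/-- A tuple of `k` distinct colours. -/
def Good (k : ℕ) (l : List ℕ) : Prop := l.length = k ∧ l.Nodup ∧ ∀ c ∈ l, c < N

theorem Good.tail {k c : ℕ} {l : List ℕ} (h : Good N (k + 1) (c :: l)) : Good N k l := by
  obtain ⟨h1, h2, h3⟩ := h
  exact ⟨by simpa using h1, (List.nodup_cons.mp h2).2, fun d hd => h3 d (List.mem_cons_of_mem _ hd)⟩

theorem Good.head {k c : ℕ} {l : List ℕ} (h : Good N (k + 1) (c :: l)) : c ∉ l :=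
  (List.nodup_cons.mp h.2.1).1

theorem Good.head_lt {k c : ℕ} {l : List ℕ} (h : Good N (k + 1) (c :: l)) : c < N :=
  h.2.2 c (List.mem_cons_self)

theorem Good.cons {k c : ℕ} {l : List ℕ} (h : Good N k l) (hc : c ∈ freeCols N l) :
    Good N (k + 1) (c :: l) := by
  obtain ⟨h1, h2, h3⟩ := h
  obtain ⟨h4, h5⟩ := mem_freeCols.mp hc
  refine ⟨by simp [h1], List.nodup_cons.mpr ⟨h5, h2⟩, fun d hd => ?_⟩
  rcases List.mem_cons.mp hd with rfl | hd
  · exact h4
  · exact h3 d hd

theorem Good.snoc {k c : ℕ} {l : List ℕ} (h : Good N k l) (hc : c ∈ freeCols N l) :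
    Good N (k + 1) (l ++ [c]) := by
  obtain ⟨h1, h2, h3⟩ := h
  obtain ⟨h4, h5⟩ := mem_freeCols.mp hc
  refine ⟨by simp [h1], ?_, fun d hd => ?_⟩
  · rw [List.nodup_append]
    refine ⟨h2, by simp, ?_⟩
    intro a ha b hb
    rw [List.mem_singleton] at hb
    rintro rfl
    exact h5 (hb ▸ ha)
  · rcases List.mem_append.mp hd with hd | hd
    · exact h3 d hd
    · rw [List.mem_singleton] at hd
      exact hd ▸ h4

theorem mem_goodLists {k : ℕ} {l : List ℕ} (h : Good N k l) : l ∈ goodLists N k := by
  induction k generalizing l with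
  | zero =>
    have : l = [] := List.length_eq_zero_iff.mp h.1
    simp [goodLists, this]
  | succ k ih =>
    cases l with
    | nil => simp [Good] at h
    | cons c l =>
      simp only [goodLists, List.mem_flatMap, List.mem_map]
      refine ⟨l, ih h.tail, c, mem_freeCols.mpr ⟨h.head_lt, h.head⟩, rfl⟩

/-! ### The cone -/

variable (N) in
/-- The value of a generator at a tuple. -/
def evalG (g : Gen) (l : List ℕ) : AA N := semP N (glook g (code l))

variable (N) in
/-- `v` is, on tuples of `k` distinct colours, a combination of the generators `gs` with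
coefficients satisfying `Pos`. -/
def ConeAt (k : ℕ) : List Gen → (List ℕ → AA N) → Prop
  | [], v => ∀ l, Good N k l → v l = 0
  | g :: gs, v =>
    ∃ (b : AA N) (w : List ℕ → AA N), Pos N b ∧ ConeAt k gs w ∧
      ∀ l, Good N k l → v l = b * evalG N g l + w l

theorem ConeAt.congr {k : ℕ} {gs : List Gen} {v v' : List ℕ → AA N}
    (h : ConeAt N k gs v) (hv : ∀ l, Good N k l → v' l = v l) : ConeAt N k gs v' := by
  cases gs with
  | nil => exact fun l hl => by rw [hv l hl]; exact h l hl
  | cons g gs =>
    obtain ⟨b, w, hb, hw, he⟩ := h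
    exact ⟨b, w, hb, hw, fun l hl => by rw [hv l hl]; exact he l hl⟩

theorem ConeAt.zero {k : ℕ} (gs : List Gen) : ConeAt N k gs (fun _ => 0) := by
  induction gs with
  | nil => exact fun _ _ => rfl
  | cons g gs ih =>
    exact ⟨0, fun _ => 0, Pos.zero, ih, fun l _ => by simp⟩

theorem ConeAt.add {k : ℕ} {gs : List Gen} {v v' : List ℕ → AA N}
    (h : ConeAt N k gs v) (h' : ConeAt N k gs v') : ConeAt N k gs (fun l => v l + v' l) := by
  induction gs generalizing v v' with
  | nil => exact fun l hl => by simp [h l hl, h' l hl]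
  | cons g gs ih =>
    obtain ⟨b, w, hb, hw, he⟩ := h
    obtain ⟨b', w', hb', hw', he'⟩ := h'
    refine ⟨b + b', fun l => w l + w' l, hb.add hb', ih hw hw', fun l hl => ?_⟩
    simp only [he l hl, he' l hl]
    ring

theorem ConeAt.smul {k : ℕ} {gs : List Gen} {v : List ℕ → AA N} {c : AA N}
    (hc : Pos N c) (h : ConeAt N k gs v) : ConeAt N k gs (fun l => c * v l) := by
  induction gs generalizing v with
  | nil => exact fun l hl => by simp [h l hl]
  | cons g gs ih =>
    obtain ⟨b, w, hb, hw, he⟩ := h
    refine ⟨c * b, fun l => c * w l, hc.mul hb, ih hw, fun l hl => ?_⟩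
    simp only [he l hl]
    ring

theorem ConeAt.gen {k : ℕ} {gs : List Gen} {g : Gen} (hg : g ∈ gs) :
    ConeAt N k gs (evalG N g) := by
  induction gs with
  | nil => simp at hg
  | cons g' gs ih =>
    rcases List.mem_cons.mp hg with rfl | hg
    · exact ⟨1, fun _ => 0, Pos.one, ConeAt.zero gs, fun l _ => by simp⟩
    · exact ⟨0, evalG N g, Pos.zero, ih hg, fun l _ => by simp⟩

/-! ### The two operators -/

variable (N) in
/-- Adding a vertex adjacent to all open vertices. -/
def opNv (v : List ℕ → AA N) : List ℕ → AA N
  | [] => 0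
  | c :: rest => qq N ^ cntLt c rest * xv N c * v rest

variable (N) in
/-- Closing the oldest open vertex. -/
def opEv (v : List ℕ → AA N) (l : List ℕ) : AA N :=
  ((freeCols N l).map fun c => v (l ++ [c])).sum

theorem ConeAt.opN {k : ℕ} {gs gs' : List Gen} {v : List ℕ → AA N}
    (hgen : ∀ g ∈ gs, ConeAt N (k + 1) gs' (opNv N (evalG N g)))
    (h : ConeAt N k gs v) : ConeAt N (k + 1) gs' (opNv N v) := by
  induction gs generalizing v with
  | nil =>
    refine (ConeAt.zero gs').congr fun l hl => ?_
    cases l with
    | nil => rfl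
    | cons c rest =>
      simp only [opNv]
      rw [h rest hl.tail, mul_zero]
  | cons g gs ih =>
    obtain ⟨b, w, hb, hw, he⟩ := h
    have h1 := (hgen g List.mem_cons_self).smul hb |>.add
      (ih (fun g' hg' => hgen g' (List.mem_cons_of_mem _ hg')) hw)
    refine h1.congr fun l hl => ?_
    cases l with
    | nil => simp [opNv]
    | cons c rest =>
      simp only [opNv]
      rw [he rest hl.tail]
      ring

theorem ConeAt.opE {k : ℕ} {gs gs' : List Gen} {v : List ℕ → AA N}
    (hgen : ∀ g ∈ gs, ConeAt N k gs' (opEv N (evalG N g)))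
    (h : ConeAt N (k + 1) gs v) : ConeAt N k gs' (opEv N v) := by
  induction gs generalizing v with
  | nil =>
    refine (ConeAt.zero gs').congr fun l hl => ?_
    unfold opEv
    apply List.sum_eq_zero
    intro x hx
    obtain ⟨c, hc, rfl⟩ := List.mem_map.mp hx
    exact h _ (hl.snoc hc)
  | cons g gs ih =>
    obtain ⟨b, w, hb, hw, he⟩ := h
    have h1 := (hgen g List.mem_cons_self).smul hb |>.add
      (ih (fun g' hg' => hgen g' (List.mem_cons_of_mem _ hg')) hw)
    refine h1.congr fun l hl => ?_
    unfold opEv
    have : ∀ L : List ℕ, (∀ c ∈ L, c ∈ freeCols N l) →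
        (L.map fun c => v (l ++ [c])).sum =
          b * (L.map fun c => evalG N g (l ++ [c])).sum + (L.map fun c => w (l ++ [c])).sum := by
      intro L hL
      induction L with
      | nil => simp
      | cons c L ihL =>
        simp only [List.map_cons, List.sum_cons]
        rw [ihL (fun d hd => hL d (List.mem_cons_of_mem _ hd)),
          he _ (hl.snoc (hL c List.mem_cons_self))]
        ring
    exact this _ fun c hc => hc

/-! ### Soundness of the checker -/

theorem semP_flatMap_cert (gs : List Gen) (C : Cert) (key : ℕ) :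
    semP N (certEval N gs C key) =
      (C.map fun t => semP N (termPoly N t.2.1 t.2.2) * semP N (glook (gs.getD t.1 []) key)).sum := by
  induction C with
  | nil => simp [certEval, semP]
  | cons t C ih =>
    simp only [certEval, List.flatMap_cons, semP_append, semP_mulP, List.map_cons, List.sum_cons]
    congr 1

theorem cone_certEval (k : ℕ) (gs : List Gen) (C : Cert) :
    ConeAt N k gs (fun l => semP N (certEval N gs C (code l))) := by
  induction C with
  | nil =>
    refine (ConeAt.zero gs).congr fun l _ => ?_
    simp [certEval, semP]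
  | cons t C ih =>
    have h1 : ConeAt N k gs (evalG N (gs.getD t.1 [])) := by
      by_cases ht : t.1 < gs.length
      · apply ConeAt.gen
        rw [List.getD_eq_getElem _ _ ht]
        exact List.getElem_mem _
      · rw [List.getD_eq_default _ _ (by omega)]
        refine (ConeAt.zero gs).congr fun l _ => ?_
        simp [evalG, glook, semP]
    have h2 := (h1.smul (Pos_termPoly t.2.1 t.2.2)).add ih
    refine h2.congr fun l _ => ?_
    simp only [certEval, List.flatMap_cons, semP_append, semP_mulP, evalG]

theorem semP_imgN (g : Gen) (c : ℕ) (rest : List ℕ) :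
    semP N (imgN g c rest) = qq N ^ cntLt c rest * xv N c * evalG N g rest := by
  simp only [imgN, semP_map_mulT, evalG, semMon_add]
  have h1 : semMon N [cntLt c rest] = qq N ^ cntLt c rest := by simp [semMon, semX]
  have h2 : semMon N (0 :: (List.replicate c 0 ++ [1])) = xv N c := semMon_xmon N c
  rw [h1, h2]
  simp

theorem semP_imgE (g : Gen) (l : List ℕ) :
    semP N (imgE N g l) = opEv N (evalG N g) l := by
  simp only [imgE, opEv, evalG]
  induction freeCols N l with
  | nil => simp [semP]
  | cons c L ih =>
    simp only [List.flatMap_cons, semP_append, List.map_cons, List.sum_cons, ih]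

theorem of_checkN {k : ℕ} {gs : List Gen} {g : Gen} {C : Cert} (h : checkN N k gs g C = true) :
    ConeAt N (k + 1) gs (opNv N (evalG N g)) := by
  refine (cone_certEval (k + 1) gs C).congr fun l hl => ?_
  have hmem := mem_goodLists hl
  have h1 := List.all_eq_true.mp h l hmem
  cases l with
  | nil => simp [Good] at hl
  | cons c rest =>
    simp only at h1
    have h2 := semP_of_peq N h1
    rw [semP_nrm, semP_nrm, semP_imgN] at h2
    exact h2

theorem of_checkE {k : ℕ} {gs : List Gen} {g : Gen} {C : Cert} (h : checkE N k gs g C = true) :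
    ConeAt N k gs (opEv N (evalG N g)) := by
  refine (cone_certEval k gs C).congr fun l hl => ?_
  have hmem := mem_goodLists hl
  have h1 := List.all_eq_true.mp h l hmem
  have h2 := semP_of_peq N h1
  rw [semP_nrm, semP_nrm, semP_imgE] at h2
  exact h2

theorem of_checkListN {k : ℕ} {gs' : List Gen} {gs : List Gen} {Cs : List Cert}
    (h : checkListN N k gs' gs Cs = true) : ∀ g ∈ gs, ConeAt N (k + 1) gs' (opNv N (evalG N g)) := by
  induction gs generalizing Cs with
  | nil => simp
  | cons g gs ih =>
    cases Cs with
    | nil => simp [checkListN] at h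
    | cons C Cs =>
      simp only [checkListN, Bool.and_eq_true] at h
      intro g' hg'
      rcases List.mem_cons.mp hg' with rfl | hg'
      · exact of_checkN h.1
      · exact ih h.2 g' hg'

theorem of_checkListE {k : ℕ} {gs' : List Gen} {gs : List Gen} {Cs : List Cert}
    (h : checkListE N k gs' gs Cs = true) : ∀ g ∈ gs, ConeAt N k gs' (opEv N (evalG N g)) := by
  induction gs generalizing Cs with
  | nil => simp
  | cons g gs ih =>
    cases Cs with
    | nil => simp [checkListE] at h
    | cons C Cs =>
      simp only [checkListE, Bool.and_eq_true] at h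
      intro g' hg'
      rcases List.mem_cons.mp hg' with rfl | hg'
      · exact of_checkE h.1
      · exact ih h.2 g' hg'

variable (N) in
/-- The family of cones is stable under the two operators. -/
structure Stable (gens : ℕ → List Gen) : Prop where
  stepN : ∀ k, ∀ g ∈ gens k, ConeAt N (k + 1) (gens (k + 1)) (opNv N (evalG N g))
  stepE : ∀ k, ∀ g ∈ gens (k + 1), ConeAt N k (gens k) (opEv N (evalG N g))

theorem stable_of_check {gens : ℕ → List Gen} {cN cE : ℕ → List Cert} {m : ℕ}
    (h : checkAll N gens cN cE m = true) (hg : ∀ k, m ≤ k → gens k = []) : Stable N gens := by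
  have key : ∀ m k, checkAll N gens cN cE m = true → k < m →
      checkListN N k (gens (k + 1)) (gens k) (cN k) = true ∧
      checkListE N k (gens k) (gens (k + 1)) (cE k) = true := by
    intro m k
    induction m with
    | zero => intro _ h; omega
    | succ m ih =>
      intro h1 h2
      simp only [checkAll, Bool.and_eq_true] at h1
      rcases Nat.lt_succ_iff_lt_or_eq.mp h2 with h3 | rfl
      · exact ih h1.2 h3
      · exact h1.1
  constructor
  · intro k g hgk
    by_cases hk : k < m
    · exact of_checkListN (key m k h hk).1 g hgk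
    · rw [hg k (by omega)] at hgk
      simp at hgk
  · intro k g hgk
    by_cases hk : k < m
    · exact of_checkListE (key m k h hk).2 g hgk
    · rw [hg (k + 1) (by omega)] at hgk
      simp at hgk

end

end Vale.Agent.Lib.P066
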