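import Mathlib

/-!
Finite colour state vectors for closed Dyck words: a computable polynomial arithmetic,
the cone spanned by finitely many vectors over the semiring generated by the elementary symmetric
polynomials and `q`, and a checker that shows that this cone is stable.
-/

namespace Vale.Agent.Lib.P066

/-! ### Computable polynomials -/

/-- A monomial: the exponent of `q` and then the exponents of the variables. -/
abbrev Mon := List ℕ

/-- A polynomial: a list of monomials with coefficients. -/
abbrev Poly := List (Mon × ℕ)

def monAdd : Mon → Mon → Mon
  | [], b => b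
  | x :: a, [] => x :: a
  | x :: a, y :: b => (x + y) :: monAdd a b

def monCmp : Mon → Mon → Ordering
  | [], [] => .eq
  | [], _ :: _ => .lt
  | _ :: _, [] => .gt
  | x :: a, y :: b => if Nat.blt x y then .lt else if Nat.blt y x then .gt else monCmp a b

def ins (t : Mon × ℕ) : Poly → Poly
  | [] => [t]
  | s :: r =>
    match monCmp t.1 s.1 with
    | .lt => t :: s :: r
    | .eq => (s.1, t.2 + s.2) :: r
    | .gt => s :: ins t r

def nrm : Poly → Poly
  | [] => []
  | t :: r => ins t (nrm r)

def peq : Poly → Poly → Bool
  | [], [] => true
  | s :: r, t :: u =>
    match monCmp s.1 t.1 with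
    | .eq => Nat.beq s.2 t.2 && peq r u
    | _ => false
  | _, _ => false

def mulT (t s : Mon × ℕ) : Mon × ℕ := (monAdd t.1 s.1, t.2 * s.2)

def mulP : Poly → Poly → Poly
  | [], _ => []
  | t :: a, b => b.map (mulT t) ++ mulP a b

/-- The variable with index `i`, as a monomial with coefficient. -/
def xmon (i : ℕ) : Mon × ℕ := (0 :: (List.replicate i 0 ++ [1]), 1)

/-- The elementary symmetric polynomial of degree `j` in the first `i` variables. -/
def ep : ℕ → ℕ → Poly
  | 0, 0 => [([], 1)]
  | 0, _ + 1 => []
  | _ + 1, 0 => [([], 1)]
  | i + 1, j + 1 => ep i (j + 1) ++ (ep i j).map (mulT (xmon i))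

/-- `q ^ s` times the product of the elementary symmetric polynomials of the degrees in `es`. -/
def termPoly (N s : ℕ) : List ℕ → Poly
  | [] => [([s], 1)]
  | i :: es => mulP (ep N i) (termPoly N s es)

/-! ### Vectors indexed by tuples of colours -/

/-- The code of a tuple of colours, newest colour first. -/
def code : List ℕ → ℕ
  | [] => 0
  | c :: l => c + 1 + 8 * code l

/-- A state vector: for the codes of tuples, a polynomial. -/
abbrev Gen := List (ℕ × Poly)

def glook : Gen → ℕ → Poly
  | [], _ => []
  | e :: r, k => if Nat.beq e.1 k then e.2 else glook r k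

/-- The number of entries of `l` below `c`. -/
def cntLt (c : ℕ) : List ℕ → ℕ
  | [] => 0
  | d :: l => (if Nat.blt d c then 1 else 0) + cntLt c l

def memB (c : ℕ) : List ℕ → Bool
  | [] => false
  | d :: l => Nat.beq c d || memB c l

/-- The colours below `N` that are not in `l`. -/
def freeCols (N : ℕ) (l : List ℕ) : List ℕ := (List.range N).filter fun c => !memB c l

/-- All tuples of `k` distinct colours, newest colour first. -/
def goodLists (N : ℕ) : ℕ → List (List ℕ)
  | 0 => [[]]
  | k + 1 => (goodLists N k).flatMap fun l => (freeCols N l).map fun c => c :: l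

/-- A certificate: a list of pairs (index of a generator, power of `q`, degrees of elementary
symmetric polynomials). -/
abbrev Cert := List (ℕ × ℕ × List ℕ)

def certEval (N : ℕ) (gs : List Gen) (C : Cert) (key : ℕ) : Poly :=
  C.flatMap fun t => mulP (termPoly N t.2.1 t.2.2) (glook (gs.getD t.1 []) key)

/-- The image of a vector under adding a vertex adjacent to all open vertices, at `c :: rest`. -/
def imgN (g : Gen) (c : ℕ) (rest : List ℕ) : Poly :=
  (glook g (code rest)).map
    (mulT (monAdd [cntLt c rest] (0 :: (List.replicate c 0 ++ [1])), 1))

/-- The image of a vector under closing the oldest open vertex, at `l`. -/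
def imgE (N : ℕ) (g : Gen) (l : List ℕ) : Poly :=
  (freeCols N l).flatMap fun c => glook g (code (l ++ [c]))

def checkN (N k : ℕ) (gs : List Gen) (g : Gen) (C : Cert) : Bool :=
  (goodLists N (k + 1)).all fun l =>
    match l with
    | [] => true
    | c :: rest => peq (nrm (imgN g c rest)) (nrm (certEval N gs C (code (c :: rest))))

def checkE (N k : ℕ) (gs : List Gen) (g : Gen) (C : Cert) : Bool :=
  (goodLists N k).all fun l =>
    peq (nrm (imgE N g l)) (nrm (certEval N gs C (code l)))

def checkListN (N k : ℕ) (gs : List Gen) : List Gen → List Cert → Bool
  | [], [] => true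
  | g :: r, C :: Cs => checkN N k gs g C && checkListN N k gs r Cs
  | _, _ => false

def checkListE (N k : ℕ) (gs : List Gen) : List Gen → List Cert → Bool
  | [], [] => true
  | g :: r, C :: Cs => checkE N k gs g C && checkListE N k gs r Cs
  | _, _ => false

/-- The whole check for levels `k < m`: adding a vertex from level `k` to `k + 1` and closing a
vertex from level `k + 1` to level `k`. -/
def checkAll (N : ℕ) (gens : ℕ → List Gen) (cN cE : ℕ → List Cert) : ℕ → Bool
  | 0 => true
  | k + 1 =>
    checkListN N k (gens (k + 1)) (gens k) (cN k) &&
    checkListE N k (gens k) (gens (k + 1)) (cE k) &&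
    checkAll N gens cN cE k

/-! ### Semantics -/

noncomputable section

abbrev AA (N : ℕ) := MvPolynomial (Fin N) (Polynomial ℕ)

variable (N : ℕ)

def xv (c : ℕ) : AA N := if h : c < N then MvPolynomial.X ⟨c, h⟩ else 0

def qq : AA N := MvPolynomial.C Polynomial.X

def semX : ℕ → Mon → AA N
  | _, [] => 1
  | i, e :: es => xv N i ^ e * semX (i + 1) es

def semMon : Mon → AA N
  | [] => 1
  | e :: es => qq N ^ e * semX N 0 es

def semP : Poly → AA N
  | [] => 0
  | t :: r => (t.2 : AA N) * semMon N t.1 + semP r

theorem semX_add (i : ℕ) (a b : Mon) :
    semX N i (monAdd a b) = semX N i a * semX N i b := by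
  induction a generalizing i b with
  | nil => simp [monAdd, semX]
  | cons x a ih =>
    cases b with
    | nil => simp [monAdd, semX]
    | cons y b =>
      simp only [monAdd, semX, ih, pow_add]
      ring

theorem semMon_add (a b : Mon) : semMon N (monAdd a b) = semMon N a * semMon N b := by
  cases a with
  | nil => simp [monAdd, semMon]
  | cons x a =>
    cases b with
    | nil => simp [monAdd, semMon]
    | cons y b =>
      simp only [monAdd, semMon, semX_add, pow_add]
      ring

theorem monCmp_eq {a b : Mon} (h : monCmp a b = .eq) : a = b := by
  induction a generalizing b with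
  | nil =>
    cases b with
    | nil => rfl
    | cons y b => simp [monCmp] at h
  | cons x a ih =>
    cases b with
    | nil => simp [monCmp] at h
    | cons y b =>
      simp only [monCmp] at h
      by_cases h1 : Nat.blt x y = true
      · simp [h1] at h
      · by_cases h2 : Nat.blt y x = true
        · simp [h1, h2] at h
        · simp only [h1, h2] at h
          have h3 : x = y := by
            simp only [Nat.blt_eq, not_lt] at h1 h2
            omega
          rw [h3, ih h]

theorem semP_ins (t : Mon × ℕ) (r : Poly) :
    semP N (ins t r) = (t.2 : AA N) * semMon N t.1 + semP N r := by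
  induction r with
  | nil => simp [ins, semP]
  | cons s r ih =>
    simp only [ins]
    cases h : monCmp t.1 s.1 with
    | lt => simp [semP]
    | eq =>
      have h' := monCmp_eq h
      simp only [semP, h', Nat.cast_add]
      ring
    | gt =>
      simp only [semP, ih]
      ring

theorem semP_nrm (r : Poly) : semP N (nrm r) = semP N r := by
  induction r with
  | nil => rfl
  | cons t r ih => simp only [nrm, semP_ins, ih, semP]

theorem semP_of_peq {a b : Poly} (h : peq a b = true) : semP N a = semP N b := by
  induction a generalizing b with
  | nil =>
    cases b with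
    | nil => rfl
    | cons t u => simp [peq] at h
  | cons s r ih =>
    cases b with
    | nil => simp [peq] at h
    | cons t u =>
      simp only [peq] at h
      cases h1 : monCmp s.1 t.1 with
      | lt => simp [h1] at h
      | gt => simp [h1] at h
      | eq =>
        simp only [h1, Bool.and_eq_true] at h
        have h3 := monCmp_eq h1
        have h4 : s.2 = t.2 := Nat.eq_of_beq_eq_true h.1
        simp only [semP, h3, h4, ih h.2]

theorem semP_append (a b : Poly) : semP N (a ++ b) = semP N a + semP N b := by
  induction a with
  | nil => simp [semP]
  | cons t a ih =>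
    simp only [List.cons_append, semP, ih]
    ring

theorem semP_map_mulT (t : Mon × ℕ) (b : Poly) :
    semP N (b.map (mulT t)) = (t.2 : AA N) * semMon N t.1 * semP N b := by
  induction b with
  | nil => simp [semP]
  | cons s b ih =>
    simp only [List.map_cons, semP, ih, mulT, semMon_add, Nat.cast_mul]
    ring

theorem semP_mulP (a b : Poly) : semP N (mulP a b) = semP N a * semP N b := by
  induction a with
  | nil => simp [mulP, semP]
  | cons t a ih =>
    simp only [mulP, semP_append, semP_map_mulT, ih, semP]
    ring

theorem semX_replicate (k i : ℕ) :
    semX N k (List.replicate i 0 ++ [1]) = xv N (k + i) := by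
  induction i generalizing k with
  | zero => simp [semX]
  | succ i ih =>
    simp only [List.replicate_succ, List.cons_append, semX, pow_zero, one_mul, ih]
    congr 1
    omega

theorem semMon_xmon (i : ℕ) : semMon N (xmon i).1 = xv N i := by
  simp [xmon, semMon, semX_replicate]

/-- `ep` computes an elementary symmetric polynomial. -/
theorem semP_ep_aux (i j : ℕ) (hi : i ≤ N) :
    semP N (ep i j) = ∑ s ∈ Finset.powersetCard j
        (Finset.univ.filter fun a : Fin N => a.val < i),
      ∏ a ∈ s, (MvPolynomial.X a : AA N) := by
  induction i generalizing j with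
  | zero =>
    cases j with
    | zero => simp [ep, semP, semMon]
    | succ j =>
      rw [Finset.powersetCard_eq_empty.mpr (by simp)]
      simp [ep, semP]
  | succ i ih =>
    have hi' : i ≤ N := by omega
    have hlt : i < N := by omega
    cases j with
    | zero => simp [ep, semP, semMon]
    | succ j =>
      have hset : (Finset.univ.filter fun a : Fin N => a.val < i + 1) =
          insert (⟨i, hlt⟩ : Fin N) (Finset.univ.filter fun a : Fin N => a.val < i) := by
        ext a
        simp only [Finset.mem_filter, Finset.mem_univ, true_and, Finset.mem_insert, Fin.ext_iff]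
        omega
      have hnot : (⟨i, hlt⟩ : Fin N) ∉ (Finset.univ.filter fun a : Fin N => a.val < i) := by
        simp
      rw [hset, Finset.powersetCard_succ_insert hnot]
      rw [Finset.sum_union]
      · rw [Finset.sum_image]
        · simp only [ep, semP_append, semP_map_mulT]
          rw [ih (j + 1) hi', ih j hi']
          congr 1
          rw [semMon_xmon]
          simp only [xmon, Nat.cast_one, one_mul, xv, hlt, dif_pos]
          rw [Finset.mul_sum]
          refine Finset.sum_congr rfl fun s hs => ?_
          rw [Finset.prod_insert]
          intro hmem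
          have := (Finset.mem_powersetCard.mp hs).1 hmem
          exact hnot this
        · intro s hs t ht hst
          have hs' := (Finset.mem_powersetCard.mp hs).1
          have ht' := (Finset.mem_powersetCard.mp ht).1
          have h1 : (⟨i, hlt⟩ : Fin N) ∉ s := fun h => hnot (hs' h)
          have h2 : (⟨i, hlt⟩ : Fin N) ∉ t := fun h => hnot (ht' h)
          have h3 := congrArg (fun u => Finset.erase u (⟨i, hlt⟩ : Fin N)) hst
          simpa [Finset.erase_insert h1, Finset.erase_insert h2] using h3
      · rw [Finset.disjoint_left]
        intro s hs hs2
        obtain ⟨t, ht, rfl⟩ := Finset.mem_image.mp hs2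
        have := (Finset.mem_powersetCard.mp hs).1 (Finset.mem_insert_self _ _)
        exact hnot this

end

end Vale.Agent.Lib.P066
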