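import Vale.Agent.Lib.P066.Bridge

/-!
From membership in the semiring generated over `ℕ[q]` by the elementary symmetric polynomials, to
the coefficients of the expansion in the products `e_λ`.
-/

namespace Vale.Agent.Lib.P066

open Polynomial

noncomputable section

variable {n : ℕ} (G : Hess n) (N : ℕ)

/-- The inclusion of `ℕ[q]` into `ℤ[q]`. -/
abbrev natInt : ℕ[X] →+* ℤ[X] := Polynomial.mapRingHom (Nat.castRingHom ℤ)

/-- The elementary symmetric polynomials of positive degree, over `ℤ[q]`. -/
abbrev ees (i : Fin N) : MvPolynomial (Fin N) ℤ[X] := MvPolynomial.esymm (Fin N) ℤ[X] (i.val + 1)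

theorem map_chiN : MvPolynomial.map natInt (chiN G N) = G.chi N := by
  classical
  rw [chiN, Hess.chi, map_sum, Finset.sum_filter]
  refine Finset.sum_congr rfl fun f _ => ?_
  by_cases hf : G.IsProper f
  · have h1 : natInt ((X : ℕ[X]) ^ G.asc f) = (X : ℤ[X]) ^ G.asc f := by simp
    simp only [if_pos hf, map_mul, map_prod, MvPolynomial.map_C, MvPolynomial.map_X]
    rw [h1]
  · simp only [if_neg hf, map_zero]

theorem map_esAlg (p : AA N) :
    MvPolynomial.map natInt (esAlg N p) =
      MvPolynomial.aeval (ees N) (MvPolynomial.map natInt p) := by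
  induction p using MvPolynomial.induction_on with
  | C a =>
    simp only [esAlg, MvPolynomial.aeval_C, MvPolynomial.map_C, MvPolynomial.algebraMap_eq]
  | add p q hp hq => simp only [map_add, hp, hq]
  | mul_X p i hp =>
    simp only [map_mul, hp, MvPolynomial.map_X, MvPolynomial.aeval_X]
    congr 1
    simp only [esAlg, MvPolynomial.aeval_X, MvPolynomial.map_esymm]

theorem aeval_ees_injective : Function.Injective (MvPolynomial.aeval (R := ℤ[X]) (ees N)) := by
  have h : (MvPolynomial.aeval (R := ℤ[X]) (ees N)) =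
      (MvPolynomial.symmetricSubalgebra (Fin N) ℤ[X]).val.comp
        (MvPolynomial.esymmAlgHom (Fin N) ℤ[X] N) := by
    apply MvPolynomial.algHom_ext
    intro i
    simp [MvPolynomial.esymmAlgHom, ees]
  rw [h, AlgHom.coe_comp]
  exact Subtype.val_injective.comp (MvPolynomial.esymmAlgHom_fin_injective ℤ[X] le_rfl)

theorem exists_mon (s : Multiset ℕ) (h1 : ∀ k ∈ s, 0 < k) (h2 : ∀ k ∈ s, k ≤ N) :
    ∃ m : Fin N →₀ ℕ, s = m.toMultiset.map (fun i => i.val + 1) ∧
      (s.map (MvPolynomial.esymm (Fin N) ℤ[X])).prod =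
        MvPolynomial.aeval (ees N) (MvPolynomial.monomial m (1 : ℤ[X])) := by
  induction s using Multiset.induction_on with
  | empty =>
    refine ⟨0, by simp, ?_⟩
    simp
  | cons k s ih =>
    obtain ⟨m, hm, hm'⟩ := ih (fun a ha => h1 a (Multiset.mem_cons_of_mem ha))
      (fun a ha => h2 a (Multiset.mem_cons_of_mem ha))
    have hk1 := h1 k (Multiset.mem_cons_self k s)
    have hk2 := h2 k (Multiset.mem_cons_self k s)
    let i : Fin N := ⟨k - 1, by omega⟩
    have hi : i.val + 1 = k := by
      simp only [i]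
      omega
    refine ⟨Finsupp.single i 1 + m, ?_, ?_⟩
    · rw [Finsupp.toMultiset_add, Finsupp.toMultiset_single, Multiset.map_add, ← hm]
      simp [hi]
    · rw [Multiset.map_cons, Multiset.prod_cons, hm']
      have h3 : (MvPolynomial.monomial (Finsupp.single i 1 + m) (1 : ℤ[X])) =
          MvPolynomial.X i * MvPolynomial.monomial m (1 : ℤ[X]) := by
        rw [MvPolynomial.X, MvPolynomial.monomial_mul, one_mul]
      rw [h3, map_mul, MvPolynomial.aeval_X]
      simp only [ees, hi]

/-- The parts of `l` are at most `N`. -/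
def GoodP {n : ℕ} (l : n.Partition) : Prop := ∀ k ∈ l.parts, k ≤ N

open scoped Classical in
/-- The exponent vector of a partition. -/
def mon {n : ℕ} (l : n.Partition) : Fin N →₀ ℕ :=
  if h : GoodP N l then (exists_mon N l.parts (fun _ hk => l.parts_pos hk) h).choose else 0

theorem mon_parts {n : ℕ} {l : n.Partition} (h : GoodP N l) :
    l.parts = (mon N l).toMultiset.map (fun i => i.val + 1) := by
  rw [mon, dif_pos h]
  exact (exists_mon N l.parts (fun _ hk => l.parts_pos hk) h).choose_spec.1

theorem mon_part {n : ℕ} {l : n.Partition} (h : GoodP N l) :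
    MvPolynomial.esymmPart (Fin N) ℤ[X] l =
      MvPolynomial.aeval (ees N) (MvPolynomial.monomial (mon N l) (1 : ℤ[X])) := by
  rw [mon, dif_pos h]
  exact (exists_mon N l.parts (fun _ hk => l.parts_pos hk) h).choose_spec.2

theorem mon_inj {n : ℕ} {l l' : n.Partition} (h : GoodP N l) (h' : GoodP N l')
    (he : mon N l = mon N l') : l = l' := by
  apply Nat.Partition.ext
  rw [mon_parts N h, mon_parts N h', he]

theorem part_zero {n : ℕ} {l : n.Partition} (h : ¬ GoodP N l) :
    MvPolynomial.esymmPart (Fin N) ℤ[X] l = 0 := by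
  unfold GoodP at h
  push_neg at h
  obtain ⟨k, hk, hk2⟩ := h
  rw [MvPolynomial.esymmPart]
  apply Multiset.prod_eq_zero
  rw [Multiset.mem_map]
  refine ⟨k, hk, ?_⟩
  rw [MvPolynomial.esymm, Finset.powersetCard_eq_empty.mpr (by simpa using hk2)]
  simp

theorem coeff_nonneg_of {n : ℕ} (p : AA N) (c : n.Partition → ℤ[X]) (f : MvPolynomial (Fin N) ℤ[X])
    (h1 : f = MvPolynomial.aeval (ees N) (MvPolynomial.map natInt p))
    (h2 : f = ∑ l, MvPolynomial.C (c l) * MvPolynomial.esymmPart (Fin N) ℤ[X] l)
    (l : n.Partition) (hl : GoodP N l) (i : ℕ) : 0 ≤ (c l).coeff i := by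
  classical
  have h3 : (∑ l, MvPolynomial.C (c l) * MvPolynomial.esymmPart (Fin N) ℤ[X] l) =
      MvPolynomial.aeval (ees N) (∑ l : n.Partition,
        if GoodP N l then MvPolynomial.monomial (mon N l) (c l) else 0) := by
    rw [map_sum]
    refine Finset.sum_congr rfl fun l _ => ?_
    by_cases h : GoodP N l
    · rw [if_pos h, mon_part N h]
      have h4 : MvPolynomial.monomial (mon N l) (c l) =
          MvPolynomial.C (c l) * MvPolynomial.monomial (mon N l) (1 : ℤ[X]) := by
        rw [MvPolynomial.C_mul_monomial, mul_one]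
      rw [h4, map_mul, MvPolynomial.aeval_C, MvPolynomial.algebraMap_eq]
    · rw [if_neg h, part_zero N h, mul_zero, map_zero]
  have h4 := aeval_ees_injective N (h1.symm.trans (h2.trans h3))
  have h5 := congrArg (MvPolynomial.coeff (mon N l)) h4
  rw [MvPolynomial.coeff_map, MvPolynomial.coeff_sum, Finset.sum_eq_single l] at h5
  · rw [if_pos hl, MvPolynomial.coeff_monomial, if_pos rfl] at h5
    rw [← h5]
    simp
  · intro l' _ hne
    by_cases h : GoodP N l'
    · rw [if_pos h, MvPolynomial.coeff_monomial, if_neg]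
      exact fun he => hne (mon_inj N h hl he)
    · rw [if_neg h]
      simp
  · simp

end

end Vale.Agent.Lib.P066
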