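import Vale.Agent.Lib.P066.Cone

/-!
The weighted sum over colourings of a natural unit interval graph, read vertex by vertex, stays in
any stable cone.
-/

namespace Vale.Agent.Lib.P066

noncomputable section

variable (N : ℕ)

/-- The sum of `F` over all lists of length `t` with entries below `N`. -/
def lsum : ℕ → (List ℕ → AA N) → AA N
  | 0, F => F []
  | t + 1, F => lsum t fun l => ∑ c ∈ Finset.range N, F (c :: l)

variable {N}

theorem lsum_congr {t : ℕ} {F G : List ℕ → AA N}
    (h : ∀ l, l.length = t → (∀ c ∈ l, c < N) → F l = G l) : lsum N t F = lsum N t G := by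
  induction t generalizing F G with
  | zero => exact h [] rfl (by simp)
  | succ t ih =>
    refine ih fun l hl hl' => Finset.sum_congr rfl fun c hc => h _ (by simp [hl]) ?_
    intro d hd
    rcases List.mem_cons.mp hd with rfl | hd
    · exact Finset.mem_range.mp hc
    · exact hl' d hd

theorem lsum_zero (t : ℕ) : lsum N t (fun _ => 0) = 0 := by
  induction t with
  | zero => rfl
  | succ t ih =>
    simp only [lsum, Finset.sum_const_zero]
    exact ih

theorem lsum_add (t : ℕ) (F G : List ℕ → AA N) :
    lsum N t (fun l => F l + G l) = lsum N t F + lsum N t G := by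
  induction t generalizing F G with
  | zero => rfl
  | succ t ih =>
    simp only [lsum, Finset.sum_add_distrib]
    exact ih _ _

theorem lsum_mul (t : ℕ) (a : AA N) (F : List ℕ → AA N) :
    lsum N t (fun l => a * F l) = a * lsum N t F := by
  induction t generalizing F with
  | zero => rfl
  | succ t ih =>
    simp only [lsum, ← Finset.mul_sum]
    exact ih _

theorem lsum_sum (t : ℕ) (s : Finset ℕ) (F : ℕ → List ℕ → AA N) :
    lsum N t (fun l => ∑ c ∈ s, F c l) = ∑ c ∈ s, lsum N t (F c) := by
  classical
  induction s using Finset.induction_on with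
  | empty => simpa using lsum_zero t
  | insert a s ha ih =>
    simp only [Finset.sum_insert ha]
    rw [lsum_add, ih]

variable (N)

/-- The weight of a list of colours (newest first): `back t` is the number of earlier neighbours
of vertex `t`. -/
def wt (back : ℕ → ℕ) : List ℕ → AA N
  | [] => 1
  | c :: l =>
    (if memB c (l.take (back l.length)) then 0
      else qq N ^ cntLt c (l.take (back l.length)) * xv N c) * wt back l

/-- The number of vertices at the end of the list that are known to be pairwise adjacent. -/
def win (back : ℕ → ℕ) : ℕ → ℕ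
  | 0 => 0
  | t + 1 => back t + 1

/-- The sum of the weights of lists of length `t` that begin with `l0`, where `l0` has length
`k`. -/
def Z (back : ℕ → ℕ) (t k : ℕ) (l0 : List ℕ) : AA N :=
  lsum N t fun l => if l.take k = l0 then wt N back l else 0

variable {N}

section
variable {back : ℕ → ℕ} (hb0 : back 0 = 0) (hb : ∀ t, back (t + 1) ≤ back t + 1)
include hb0 hb

theorem back_le_win (t : ℕ) : back t ≤ win back t := by
  cases t with
  | zero => simp [hb0, win]
  | succ t => exact hb t

theorem win_le (t : ℕ) : win back t ≤ t := by
  induction t with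
  | zero => simp [win]
  | succ t ih =>
    have := back_le_win hb0 hb t
    simp only [win]
    omega

theorem wt_nodup (l : List ℕ) (h : wt N back l ≠ 0) : (l.take (win back l.length)).Nodup := by
  induction l with
  | nil => simp
  | cons c l ih =>
    simp only [wt] at h
    have h1 : memB c (l.take (back l.length)) = false := by
      by_contra h2
      simp only [Bool.not_eq_false] at h2
      simp [h2] at h
    have h2 : wt N back l ≠ 0 := fun h3 => h (by rw [h3, mul_zero])
    have h3 := ih h2
    simp only [List.length_cons, win, List.take_succ_cons]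
    rw [List.nodup_cons]
    constructor
    · intro h4
      rw [← memB_iff] at h4
      simp [h1] at h4
    · exact (List.take_sublist_take_left (back_le_win hb0 hb l.length)).nodup h3

theorem Z_of_not_nodup {t k : ℕ} (hk : k ≤ win back t) {l0 : List ℕ} (h0 : ¬ l0.Nodup) :
    Z N back t k l0 = 0 := by
  unfold Z
  refine Eq.trans (lsum_congr fun l hl _ => ?_) (lsum_zero t)
  split_ifs with h1
  · by_contra h2
    apply h0
    rw [← h1]
    have h3 := wt_nodup hb0 hb l h2
    rw [hl] at h3
    exact (List.take_sublist_take_left hk).nodup h3
  · rfl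

end

theorem Z_step_N (back : ℕ → ℕ) (t : ℕ) {c : ℕ} (hc : c < N) (l0 : List ℕ) :
    Z N back (t + 1) (back t + 1) (c :: l0) =
      (if memB c l0 then 0 else qq N ^ cntLt c l0 * xv N c) * Z N back t (back t) l0 := by
  unfold Z
  simp only [lsum]
  rw [← lsum_mul]
  refine lsum_congr fun l hl _ => ?_
  simp only [List.take_succ_cons, List.cons.injEq]
  by_cases h1 : l.take (back t) = l0
  · have hsum : ∑ d ∈ Finset.range N,
        (if d = c ∧ l.take (back t) = l0 then wt N back (d :: l) else 0) = wt N back (c :: l) := by
      simp only [h1, and_true]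
      rw [Finset.sum_ite_eq']
      simp [hc]
    rw [hsum, if_pos h1]
    simp only [wt, hl, h1]
  · simp [h1]

theorem Z_step_E (back : ℕ → ℕ) {t k : ℕ} (hk : k < t) {l0 : List ℕ} (h0 : l0.length = k) :
    Z N back t k l0 = ∑ c ∈ Finset.range N, Z N back t (k + 1) (l0 ++ [c]) := by
  unfold Z
  rw [← lsum_sum]
  refine lsum_congr fun l hl hl' => ?_
  have hk' : k < l.length := by omega
  have htake : l.take (k + 1) = l.take k ++ [l[k]] := by
    rw [List.take_add_one]
    simp [hk']
  have hlen : (l.take k).length = l0.length := by
    simp [h0, hk'.le]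
  have hiff : ∀ c, (l.take (k + 1) = l0 ++ [c]) ↔ (c = l[k] ∧ l.take k = l0) := by
    intro c
    rw [htake]
    constructor
    · intro h
      have := List.append_inj h hlen
      refine ⟨?_, this.1⟩
      have h2 := this.2
      simpa [eq_comm] using h2
    · rintro ⟨rfl, h⟩
      rw [h]
  simp only [hiff]
  by_cases h1 : l.take k = l0
  · simp only [h1, and_true, if_true]
    rw [Finset.sum_ite_eq']
    have : l[k] < N := hl' _ (List.getElem_mem _)
    simp [this]
  · simp [h1]

theorem sum_freeCols (l : List ℕ) (G : ℕ → AA N) (h : ∀ c, c ∈ l → G c = 0) :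
    ((freeCols N l).map G).sum = ∑ c ∈ Finset.range N, G c := by
  have h1 : ∀ L : List ℕ, ((L.filter fun c => !memB c l).map G).sum = (L.map G).sum := by
    intro L
    induction L with
    | nil => rfl
    | cons d L ih =>
      by_cases hd : memB d l = true
      · have h2 : G d = 0 := h d ((memB_iff d l).mp hd)
        simp [hd, ih, h2]
      · have hd' : memB d l = false := by simpa using hd
        simp [hd', ih]
  rw [freeCols, h1]
  simp [Finset.sum, Multiset.range]

section
variable {back : ℕ → ℕ} (hb0 : back 0 = 0) (hb : ∀ t, back (t + 1) ≤ back t + 1)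
variable {gens : ℕ → List Gen} (hS : Stable N gens)
include hb0 hb hS

theorem cone_down {t : ℕ} (h : ConeAt N (win back t) (gens (win back t)) (Z N back t (win back t)))
    (d j : ℕ) (hj : j + d = win back t) : ConeAt N j (gens j) (Z N back t j) := by
  induction d generalizing j with
  | zero =>
    have : j = win back t := by omega
    rw [this]
    exact h
  | succ d ih =>
    have h1 := ih (j + 1) (by omega)
    refine (ConeAt.opE (hS.stepE j) h1).congr fun l hl => ?_
    have hwin := win_le hb0 hb t
    rw [Z_step_E back (by omega) hl.1]
    unfold opEv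
    rw [sum_freeCols]
    intro c hc
    apply Z_of_not_nodup hb0 hb (by omega)
    intro hnd
    have := (List.nodup_append.mp hnd).2.2 c hc c (by simp)
    exact this rfl

theorem cone_main {g0 : Gen} (h0 : g0 ∈ gens 0) (h1 : evalG N g0 [] = 1) (t : ℕ) :
    ConeAt N (win back t) (gens (win back t)) (Z N back t (win back t)) := by
  induction t with
  | zero =>
    refine (ConeAt.gen h0).congr fun l hl => ?_
    have hl0 : l = [] := List.length_eq_zero_iff.mp hl.1
    subst hl0
    rw [h1]
    simp [Z, lsum, wt]
  | succ t ih =>
    have hle := back_le_win hb0 hb t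
    have h2 := cone_down hb0 hb hS ih (win back t - back t) (back t) (by omega)
    refine (ConeAt.opN (hS.stepN (back t)) h2).congr fun l hl => ?_
    cases l with
    | nil => simp [Good] at hl
    | cons c rest =>
      show Z N back (t + 1) (back t + 1) (c :: rest) = _
      rw [Z_step_N back t hl.head_lt]
      have h3 : memB c rest = false := by
        by_contra h4
        simp only [Bool.not_eq_false] at h4
        exact hl.head ((memB_iff c rest).mp h4)
      simp [opNv, h3]

theorem pos_lsum {g0 : Gen} (h0 : gens 0 = [g0]) (h1 : evalG N g0 [] = 1) (n : ℕ) :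
    Pos N (lsum N n (wt N back)) := by
  have h2 := cone_down hb0 hb hS (cone_main hb0 hb hS (by simp [h0]) h1 n)
    (win back n) 0 (by omega)
  rw [h0] at h2
  obtain ⟨b, w, hb', hw, he⟩ := h2
  have h3 := he [] ⟨rfl, by simp, by simp⟩
  rw [h1, mul_one, hw [] ⟨rfl, by simp, by simp⟩, add_zero] at h3
  have h4 : Z N back n 0 [] = lsum N n (wt N back) := by
    unfold Z
    refine lsum_congr fun l _ _ => ?_
    simp
  rw [← h4, h3]
  exact hb'

end

end

end Vale.Agent.Lib.P066
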