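import Vale.Agent.Lib.P066.Extract

/-!
The general consequence of a stable cone.
-/

namespace Vale.Agent.Lib.P066

open Polynomial

theorem main_of_stable {N : ℕ} {gens : ℕ → List Gen} (hS : Stable N gens) {g0 : Gen}
    (h0 : gens 0 = [g0]) (h1 : evalG N g0 [] = 1) {n : ℕ} (G : Hess n) :
    (∃ p : MvPolynomial (Fin N) ℕ[X],
      G.chi N = MvPolynomial.aeval (fun i : Fin N => MvPolynomial.esymm (Fin N) ℤ[X] (i.val + 1))
        (MvPolynomial.map (Polynomial.mapRingHom (Nat.castRingHom ℤ)) p)) ∧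
    ∀ c : n.Partition → ℤ[X],
      (G.chi N = ∑ l, MvPolynomial.C (c l) * MvPolynomial.esymmPart (Fin N) ℤ[X] l) →
      ∀ l : n.Partition, (∀ k ∈ l.parts, k ≤ N) → ∀ i, 0 ≤ (c l).coeff i := by
  have hpos : Pos N (chiN G N) := by
    rw [chiN_eq]
    exact pos_lsum G.back_zero G.back_succ hS h0 h1 n
  obtain ⟨p, hp⟩ := hpos
  have hp' : esAlg N p = chiN G N := hp
  have key : G.chi N = MvPolynomial.aeval (ees N) (MvPolynomial.map natInt p) := by
    rw [← map_esAlg, hp', map_chiN]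
  refine ⟨⟨p, key⟩, fun c hc l hl i => ?_⟩
  exact coeff_nonneg_of N p c (G.chi N) key hc l hl i

end Vale.Agent.Lib.P066
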